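import Vale.Agent.P091.AD.H813.Plus
import Vale.Agent.P091.HEART.H896.Growth

/-!
# P091, heart, row H1 (helper896): the local statement `UNIT`

One node: a population of characters which are biased for the law `μ` and unexplained by the random
element `RJ` gives a new unit (noise, event, small cost) whose letter raises `H(RJ)`.
-/

set_option autoImplicit false

open Finset Real
open Vale.Agent.P065.Ent

noncomputable section

namespace Vale.Agent.P091.Heart.H896

open Vale.Agent.P091.AD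

/-- the letter `a` is unexplained by `RJ` relative to the background `α` at height `h` -/
def Unexpl {Γ J : Type} [AddCommGroup Γ] [Fintype J] (μJ : J → ℝ) (RJ : J → Γ) (α : Γ → ℝ)
    (h : ℝ) (a : Γ) : Prop := 5 / 8 ≤ ∑ j, μJ j *
    (if exp h * ∑ i, μJ i * α (RJ j + a - RJ i) < Pr μJ RJ (RJ j) then 1 else 0)

/-- **UNIT.** -/
def UNIT : Prop := ∃ c C C1 R0 : ℝ, 0 < c ∧ 0 < C ∧ 0 < C1 ∧ 1 < R0 ∧
  ∀ (G : Type) [AddCommGroup G] [Fintype G] (A : Finset (AddChar G ℂ)) (μ : G → ℝ) (σ R θ : ℝ)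
    (J : Type) [Fintype J] (μJ : J → ℝ) (RJ : J → AddChar G ℂ) (α : AddChar G ℂ → ℝ),
    R0 ≤ R → (log R) ^ (-c) ≤ σ → C1 * (log R) ^ (-c) ≤ θ → IsProb μ →
    (∀ y, (Fintype.card G : ℝ) * μ y ≤ exp R) → (∀ a ∈ A, σ ≤ ‖∑ y, (μ y : ℂ) * a y‖) →
    IsProb μJ → (∀ a, 0 ≤ α a) → (∀ a ∈ A, Unexpl μJ RJ α (θ * R) a) →
    exp (-(θ * R / 2)) ≤ ∑ a ∈ A, α a →
    ∃ (A' : Finset (AddChar G ℂ)) (lam : Law (AddChar G ℂ)) (y0 : G) (ρ : G → ℝ), A' ⊆ A ∧
      IsUnit12 A' μ σ R (kp c C R) lam y0 ρ ∧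
      H μJ RJ + θ * R / 4
        ≤ H (fun w : J × lam.Lt => μJ w.1 * lam.beta w.2) (fun w => RJ w.1 + lam.N w.2)

/-- coherence of the letter with the noise -/
theorem coherence {G : Type} [AddCommGroup G] [Fintype G] (lam : Law (AddChar G ℂ)) {ρ : G → ℝ} 
    {κ : ℝ} (h : ∑ t, ρ t * (1 - lam.m t) ≤ κ) :
    ∑ u, ∑ t, lam.beta u * ρ t * ‖1 - lam.N u t‖ ^ 2 ≤ 2 * κ := by
  have h1 : ∀ (u : lam.Lt) (t : G), ‖1 - lam.N u t‖ ^ 2 = 2 - 2 * (lam.N u t).re := by
    intro u t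
    have h2 : ‖lam.N u t‖ = 1 := AddChar.norm_apply _ _
    have h3 : ‖1 - lam.N u t‖ ^ 2 = (1 - (lam.N u t).re) ^ 2 + (lam.N u t).im ^ 2 := by
      rw [← Complex.normSq_eq_norm_sq, Complex.normSq_apply]
      simp
      ring
    have h4 : (lam.N u t).re ^ 2 + (lam.N u t).im ^ 2 = 1 := by
      have := Complex.normSq_eq_norm_sq (lam.N u t)
      rw [h2, Complex.normSq_apply] at this
      nlinarith
    rw [h3]; nlinarith
  have h5 : ∀ t : G, ∑ u : lam.Lt, lam.beta u * (lam.N u t).re = lam.m t := by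
    intro t
    have h6 := lam.sum_beta_N t
    have h7 := congrArg Complex.re h6
    rw [Complex.re_sum, Complex.ofReal_re] at h7
    rw [← h7]
    refine sum_congr rfl fun u _ => ?_
    rw [Complex.re_ofReal_mul]
  have h8 : ∀ t : G, ∑ u : lam.Lt, lam.beta u * ρ t * ‖1 - lam.N u t‖ ^ 2
      = 2 * (ρ t * (1 - lam.m t)) := by
    intro t
    have h9 : ∀ u : lam.Lt, lam.beta u * ρ t * ‖1 - lam.N u t‖ ^ 2
        = (2 * ρ t) * lam.beta u - (2 * ρ t) * (lam.beta u * (lam.N u t).re) := by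
      intro u; rw [h1]; ring
    rw [sum_congr rfl fun u _ => h9 u, sum_sub_distrib, ← mul_sum, ← mul_sum, h5,
      lam.beta_isProb.sum]
    ring
  rw [sum_comm, sum_congr rfl fun t _ => h8 t, ← mul_sum]
  linarith

/-! ## A large set on which `α` is bounded below by its average -/

theorem sum_le_harmonic {Γ : Type} (α : Γ → ℝ) (s : ℝ) :
    ∀ A : Finset Γ, (∀ A' ⊆ A, A'.Nonempty → ∃ a ∈ A', (A'.card : ℝ) * α a ≤ s) →
      ∑ a ∈ A, α a ≤ s * (harmonic A.card : ℝ) := by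
  classical
  intro A
  induction A using Finset.strongInduction with
  | H A ih =>
    intro h
    rcases A.eq_empty_or_nonempty with rfl | hne
    · simp
    · obtain ⟨a, ha, h1⟩ := h A subset_rfl hne
      have hlt : A.erase a ⊂ A := erase_ssubset ha
      have h2 := ih (A.erase a) hlt fun A' hA' hn => h A' (hA'.trans hlt.subset) hn
      have hcard : 0 < A.card := card_pos.mpr hne
      have h3 : (A.erase a).card + 1 = A.card := card_erase_add_one ha
      have h4 : (harmonic A.card : ℝ) = (harmonic (A.erase a).card : ℝ) + (A.card : ℝ)⁻¹ := by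
        rw [← h3, harmonic_succ]
        push_cast
        ring
      rw [← add_sum_erase A α ha, h4, mul_add]
      have h5 : α a ≤ s * (A.card : ℝ)⁻¹ := by
        rw [← div_eq_mul_inv, le_div_iff₀ (by exact_mod_cast hcard)]
        linarith
      linarith

theorem dense_subset {Γ : Type} (A : Finset Γ) (α : Γ → ℝ) (M : ℝ) (hS : 0 < ∑ a ∈ A, α a)
    (hM : (A.card : ℝ) ≤ exp M) (hM0 : 0 ≤ M) :
    ∃ A' ⊆ A, A'.Nonempty ∧ ∀ a ∈ A', ∑ a ∈ A, α a ≤ (M + 2) * ((A'.card : ℝ) * α a) := by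
  by_contra hcon
  push Not at hcon
  set S := ∑ a ∈ A, α a with hSdef
  have h1 : S ≤ (S / (M + 2)) * (harmonic A.card : ℝ) := by
    refine sum_le_harmonic α (S / (M + 2)) A fun A' hA' hn => ?_
    obtain ⟨a, ha, h2⟩ := hcon A' hA' hn
    refine ⟨a, ha, ?_⟩
    rw [le_div_iff₀ (by linarith)]
    linarith
  have hne : A.Nonempty := by
    rw [Finset.nonempty_iff_ne_empty]
    rintro rfl
    simp [hSdef] at hS
  have h2 : (harmonic A.card : ℝ) ≤ 1 + log A.card := harmonic_le_one_add_log _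
  have h3 : log (A.card : ℝ) ≤ M := by
    rw [← log_exp M]
    exact log_le_log (by exact_mod_cast card_pos.mpr hne) hM
  have h4 : S / (M + 2) * (harmonic A.card : ℝ) ≤ S / (M + 2) * (M + 1) :=
    mul_le_mul_of_nonneg_left (by linarith) (div_nonneg hS.le (by linarith))
  have h5 : S / (M + 2) * (M + 1) < S := by
    rw [div_mul_eq_mul_div, div_lt_iff₀ (by linarith)]
    nlinarith
  linarith

/-! ## Parseval -/

theorem parseval {G : Type} [AddCommGroup G] [Fintype G] (μ : G → ℝ) :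
    ∑ a : AddChar G ℂ, ‖∑ y, (μ y : ℂ) * a y‖ ^ 2 = (Fintype.card G : ℝ) * ∑ y, μ y ^ 2 := by
  classical
  have h1 : ∀ a : AddChar G ℂ, ((‖∑ y, (μ y : ℂ) * a y‖ ^ 2 : ℝ) : ℂ)
      = ∑ y, ∑ y', (μ y : ℂ) * (μ y' : ℂ) * a (y - y') := by
    intro a
    rw [← Complex.normSq_eq_norm_sq, ← Complex.mul_conj, map_sum, sum_mul_sum]
    refine sum_congr rfl fun y _ => sum_congr rfl fun y' _ => ?_
    rw [map_mul, Complex.conj_ofReal, sub_eq_add_neg, AddChar.map_add_eq_mul,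
      AddChar.map_neg_eq_conj]
    ring
  have h2 : ((∑ a : AddChar G ℂ, ‖∑ y, (μ y : ℂ) * a y‖ ^ 2 : ℝ) : ℂ)
      = (((Fintype.card G : ℝ) * ∑ y, μ y ^ 2 : ℝ) : ℂ) := by
    push_cast
    rw [sum_congr rfl fun a _ => by simpa using h1 a, sum_comm]
    rw [mul_sum]
    refine sum_congr rfl fun y _ => ?_
    rw [sum_comm]
    have h3 : ∀ y', ∑ a : AddChar G ℂ, (μ y : ℂ) * (μ y' : ℂ) * a (y - y')
        = if y' = y then (μ y : ℂ) * (μ y' : ℂ) * (Fintype.card G : ℂ) else 0 := by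
      intro y'
      rw [← mul_sum, AddChar.sum_apply_eq_ite]
      by_cases e : y' = y
      · rw [if_pos e, if_pos (by rw [e, sub_self])]
      · rw [if_neg e, if_neg (by rw [sub_eq_zero]; exact fun h => e h.symm), mul_zero]
    rw [sum_congr rfl fun y' _ => h3 y', sum_ite_eq' univ y, if_pos (mem_univ y)]
    ring
  exact_mod_cast h2

theorem card_biased {G : Type} [AddCommGroup G] [Fintype G] (A : Finset (AddChar G ℂ)) (μ : G → ℝ)
    (σ R : ℝ) (hσ : 0 < σ) (hμ : IsProb μ) (hd : ∀ y, (Fintype.card G : ℝ) * μ y ≤ exp R)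
    (hA : ∀ a ∈ A, σ ≤ ‖∑ y, (μ y : ℂ) * a y‖) : (A.card : ℝ) * σ ^ 2 ≤ exp R := by
  classical
  calc (A.card : ℝ) * σ ^ 2 = ∑ a ∈ A, σ ^ 2 := by rw [sum_const, nsmul_eq_mul]
    _ ≤ ∑ a ∈ A, ‖∑ y, (μ y : ℂ) * a y‖ ^ 2 :=
        sum_le_sum fun a ha => pow_le_pow_left₀ hσ.le (hA a ha) 2
    _ ≤ ∑ a : AddChar G ℂ, ‖∑ y, (μ y : ℂ) * a y‖ ^ 2 :=
        sum_le_univ_sum_of_nonneg fun a => by positivity
    _ = (Fintype.card G : ℝ) * ∑ y, μ y ^ 2 := parseval μ
    _ = ∑ y, ((Fintype.card G : ℝ) * μ y) * μ y := by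
        rw [mul_sum]; exact sum_congr rfl fun y _ => by ring
    _ ≤ ∑ y, exp R * μ y :=
        sum_le_sum fun y _ => mul_le_mul_of_nonneg_right (hd y) (hμ.nonneg y)
    _ = exp R := by rw [← mul_sum, hμ.sum, mul_one]

/-! ## The theorem -/

/-- the numerical facts -/
theorem numerics (c : ℝ) (_hc : 0 < c) : ∃ R1 : ℝ, 1 < R1 ∧ ∀ R, R1 ≤ R →
    (log R) ^ (2 * c) ≤ exp R ∧ 0 < log R ∧ log (2 * R + 2) + 2 ≤ R * (log R) ^ (-c) := by
  have h1 : ∀ᶠ R : ℝ in Filter.atTop, (log R) ^ (2 * c) ≤ R := by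
    have := (isLittleO_log_rpow_rpow_atTop (2 * c) (one_pos)).bound one_pos
    filter_upwards [this, Filter.eventually_gt_atTop 1] with R hR h1
    simp only [rpow_one, one_mul] at hR
    rw [Real.norm_of_nonneg (rpow_nonneg (log_nonneg h1.le) _),
      Real.norm_of_nonneg (zero_le_one.trans h1.le)] at hR
    exact hR
  have h2 : ∀ᶠ R : ℝ in Filter.atTop, 4 * (log R) ^ (c + 1) ≤ R := by
    have := (isLittleO_log_rpow_rpow_atTop (c + 1) (one_pos)).bound
      (show (0 : ℝ) < 1 / 4 by norm_num)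
    filter_upwards [this, Filter.eventually_gt_atTop 1] with R hR h1
    simp only [rpow_one] at hR
    rw [Real.norm_of_nonneg (rpow_nonneg (log_nonneg h1.le) _),
      Real.norm_of_nonneg (zero_le_one.trans h1.le)] at hR
    linarith
  obtain ⟨R1, hR1⟩ := (h1.and h2).exists_forall_of_atTop
  refine ⟨max R1 (exp 2 + 4), ?_, fun R hR => ?_⟩
  · have := exp_pos (2 : ℝ)
    exact lt_max_of_lt_right (by linarith)
  obtain ⟨g1, g2⟩ := hR1 R ((le_max_left _ _).trans hR)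
  have hR2 : exp 2 + 4 ≤ R := (le_max_right _ _).trans hR
  have he := exp_pos (2 : ℝ)
  have hR4 : 4 ≤ R := by linarith
  have hlog : 2 ≤ log R := by
    rw [← log_exp 2]
    exact log_le_log he (by linarith)
  have hlp : 0 < log R := by linarith
  refine ⟨g1.trans ((le_trans (by linarith) (add_one_le_exp R))), hlp, ?_⟩
  have h3 : log (2 * R + 2) ≤ 2 * log R := by
    rw [← log_rpow (by linarith)]
    refine log_le_log (by linarith) ?_
    rw [show (2 : ℝ) = ((2 : ℕ) : ℝ) by norm_num, rpow_natCast]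
    push_cast
    nlinarith
  have h4 : log (2 * R + 2) + 2 ≤ 4 * log R := by linarith
  refine h4.trans ?_
  rw [rpow_neg hlp.le, ← div_eq_mul_inv, le_div_iff₀ (rpow_pos_of_pos hlp _)]
  rw [rpow_add hlp, rpow_one] at g2
  linarith

/-- **UNIT from ADplus** -/
theorem unit_of (hAD : ADplus) : UNIT := by
  classical
  obtain ⟨c, C, R0, hc, hC, hR0, h⟩ := hAD
  obtain ⟨R1, hR1, hnum⟩ := numerics c hc
  refine ⟨c, C, 10 * C + 16, max R0 R1, hc, hC, by linarith, lt_max_of_lt_left hR0, ?_⟩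
  intro G _ _ A μ σ R θ J _ μJ RJ α hR hσ hθ hμ hd hbias hJ hα hun hmass
  obtain ⟨n1, n2, n3⟩ := hnum R ((le_max_right _ _).trans hR)
  have hR0' : R0 ≤ R := (le_max_left _ _).trans hR
  have hRpos : 0 < R := by linarith
  have hrp : 0 < (log R) ^ (-c) := rpow_pos_of_pos n2 _
  have hσ0 : 0 < σ := hrp.trans_le hσ
  -- the cardinality of `A`
  have hcard : (A.card : ℝ) ≤ exp (2 * R) := by
    have h1 := card_biased A μ σ R hσ0 hμ hd hbias
    have h2 : (log R) ^ (-c) * (log R) ^ (-c) ≤ σ ^ 2 := by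
      rw [sq]; exact mul_le_mul hσ hσ hrp.le hσ0.le
    have h3 : (A.card : ℝ) * ((log R) ^ (-c) * (log R) ^ (-c)) ≤ exp R :=
      (mul_le_mul_of_nonneg_left h2 (Nat.cast_nonneg _)).trans h1
    have h4 : (log R) ^ (-c) * (log R) ^ (-c) = ((log R) ^ (2 * c))⁻¹ := by
      rw [← rpow_add n2, ← rpow_neg n2.le]; congr 1; ring
    rw [h4, ← div_eq_mul_inv, div_le_iff₀ (rpow_pos_of_pos n2 _)] at h3
    calc (A.card : ℝ) ≤ exp R * (log R) ^ (2 * c) := h3
      _ ≤ exp R * exp R := mul_le_mul_of_nonneg_left n1 (exp_pos R).le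
      _ = exp (2 * R) := by rw [← exp_add]; congr 1; ring
  have hS : 0 < ∑ a ∈ A, α a := (exp_pos _).trans_le hmass
  obtain ⟨A', hA', hne, hdens⟩ := dense_subset A α (2 * R) hS hcard (by linarith)
  obtain ⟨lam, y0, ρ, hu⟩ := h G A' μ σ R hR0' hσ hne hμ hd (fun a ha => hbias a (hA' ha))
  refine ⟨A', lam, y0, ρ, hA', hu, ?_⟩
  -- growth
  set b : ℝ := kp c C R * R + θ * R / 2 + log (2 * R + 2) with hb
  have hcardA' : (0 : ℝ) < A'.card := by exact_mod_cast card_pos.mpr hne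
  have hkp : kp c C R = C * (log R) ^ (-c) := rfl
  have hkey : (log R) ^ (-c) * R * (10 * C + 16) ≤ θ * R := by
    have := mul_le_mul_of_nonneg_right hθ hRpos.le
    nlinarith
  have hn3 : log (2 * R + 2) + 2 ≤ (log R) ^ (-c) * R := by linarith
  have hlog0 : 0 ≤ log (2 * R + 2) := log_nonneg (by linarith)
  have hQ : 0 ≤ C * ((log R) ^ (-c) * R) := by positivity
  have hg := growth lam hJ RJ α hα b (θ * R) (5 / 8)
    (by
      intro ω
      obtain ⟨hmem, hc1⟩ := hu.cost ω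
      have h5 := hdens _ hmem
      have hPz := Pr_nonneg lam.prob lam.z (lam.z ω)
      have hP := Pr_nonneg lam.prob (fun ω => (lam.a ω, lam.z ω)) (lam.a ω, lam.z ω)
      -- `e^{-θR/2} ≤ (2R+2) |A'| α(a)`
      have h6 : 1 ≤ exp (θ * R / 2) * ((2 * R + 2) * ((A'.card : ℝ) * α (lam.a ω))) := by
        have h7 : exp (-(θ * R / 2)) ≤ (2 * R + 2) * ((A'.card : ℝ) * α (lam.a ω)) := hmass.trans h5
        have h8 := mul_le_mul_of_nonneg_left h7 (exp_pos (θ * R / 2)).le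
        rwa [← exp_add, add_neg_cancel, exp_zero] at h8
      have h9 : Pr lam.μ (fun ω => (lam.a ω, lam.z ω)) (lam.a ω, lam.z ω) * (A'.card : ℝ)
          ≤ (exp b * α (lam.a ω) * Pr lam.μ lam.z (lam.z ω)) * (A'.card : ℝ) := by
        calc Pr lam.μ (fun ω => (lam.a ω, lam.z ω)) (lam.a ω, lam.z ω) * (A'.card : ℝ)
            ≤ exp (kp c C R * R) * Pr lam.μ lam.z (lam.z ω) := hc1
          _ ≤ exp (kp c C R * R) * Pr lam.μ lam.z (lam.z ω) *
              (exp (θ * R / 2) * ((2 * R + 2) * ((A'.card : ℝ) * α (lam.a ω)))) :=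
              le_mul_of_one_le_right (mul_nonneg (exp_pos _).le hPz) h6
          _ = _ := by
              rw [hb, exp_add, exp_add, exp_log (by linarith : (0 : ℝ) < 2 * R + 2)]
              ring
      exact le_of_mul_le_mul_right h9 hcardA')
    (fun ω => hun _ (hA' (hu.cost ω).1))
    (by
      rw [hb, hkp]
      nlinarith)
  refine le_trans ?_ hg
  rw [hb, hkp]
  nlinarith

end Vale.Agent.P091.Heart.H896
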